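import Vale.Agent.P097.H127.Gauss

open MeasureTheory Complex Set Filter Topology

namespace Vale.Agent.P097.H127

/-- logarithmic derivative of the weight -/
noncomputable def Lw (u : ℂ × ℂ) : ℂ × ℂ →L[ℂ] ℂ :=
  (-(2 * u.1)) • ContinuousLinearMap.fst ℂ ℂ ℂ + (-(2 * u.2)) • ContinuousLinearMap.snd ℂ ℂ ℂ

theorem hasFDerivAt_W (u : ℂ × ℂ) : HasFDerivAt W (W u • Lw u) u := by
  have h1 : HasFDerivAt (fun z : ℂ × ℂ => z.1 ^ 2) ((2 * u.1) • ContinuousLinearMap.fst ℂ ℂ ℂ) u := by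
    simpa using (hasFDerivAt_fst (𝕜 := ℂ) (p := u)).pow 2
  have h2 : HasFDerivAt (fun z : ℂ × ℂ => z.2 ^ 2) ((2 * u.2) • ContinuousLinearMap.snd ℂ ℂ ℂ) u := by
    simpa using (hasFDerivAt_snd (𝕜 := ℂ) (p := u)).pow 2
  have h3 := ((h1.add h2).neg).cexp
  have e : cexp (-(u.1 ^ 2 + u.2 ^ 2)) •
      -((2 * u.1) • ContinuousLinearMap.fst ℂ ℂ ℂ + (2 * u.2) • ContinuousLinearMap.snd ℂ ℂ ℂ)
      = W u • Lw u := by
    unfold W Lw
    congr 1
    ext <;> simp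
  rw [← e]
  exact h3

theorem continuous_Lw : Continuous Lw := by
  unfold Lw; fun_prop

theorem norm_Lw (u : ℂ × ℂ) : ‖Lw u‖ ≤ 2 * ‖u.1‖ + 2 * ‖u.2‖ := by
  unfold Lw
  refine (norm_add_le _ _).trans (add_le_add ?_ ?_)
  · rw [norm_smul]
    have : ‖-(2 * u.1)‖ = 2 * ‖u.1‖ := by simp
    rw [this]
    exact mul_le_of_le_one_right (by positivity) (ContinuousLinearMap.norm_fst_le ℂ ℂ ℂ)
  · rw [norm_smul]
    have : ‖-(2 * u.2)‖ = 2 * ‖u.2‖ := by simp
    rw [this]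
    exact mul_le_of_le_one_right (by positivity) (ContinuousLinearMap.norm_snd_le ℂ ℂ ℂ)

theorem abs_le_exp (t : ℝ) : |t| ≤ 2 * Real.exp (t ^ 2 / 16) := by
  have h1 := Real.add_one_le_exp (t ^ 2 / 16)
  have h2 : |t| ^ 2 = t ^ 2 := sq_abs t
  nlinarith [sq_nonneg (|t| - 4)]

theorem norm_Lw_pt (x Y : ℝ × ℝ) (z : ℂ × ℂ) :
    ‖Lw (pt x Y - z)‖ ≤ (8 + 4 * (‖Y‖ + ‖z‖)) * Real.exp (sq x / 16) := by
  refine (norm_Lw _).trans ?_
  have a1 : ‖(pt x Y - z).1‖ ≤ |x.1| + ‖Y‖ + ‖z‖ := by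
    simp only [pt, Prod.fst_sub]
    refine (norm_sub_le _ _).trans (add_le_add ((norm_add_le _ _).trans (add_le_add ?_ ?_))
      (norm_fst_le z))
    · simp
    · simpa using norm_fst_le Y
  have a2 : ‖(pt x Y - z).2‖ ≤ |x.2| + ‖Y‖ + ‖z‖ := by
    simp only [pt, Prod.snd_sub]
    refine (norm_sub_le _ _).trans (add_le_add ((norm_add_le _ _).trans (add_le_add ?_ ?_))
      (norm_snd_le z))
    · simp
    · simpa using norm_snd_le Y
  have e1 : |x.1| ≤ 2 * Real.exp (sq x / 16) := by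
    refine (abs_le_exp x.1).trans ?_
    have : x.1 ^ 2 / 16 ≤ sq x / 16 := by unfold sq; nlinarith [sq_nonneg x.2]
    linarith [Real.exp_le_exp.mpr this]
  have e2 : |x.2| ≤ 2 * Real.exp (sq x / 16) := by
    refine (abs_le_exp x.2).trans ?_
    have : x.2 ^ 2 / 16 ≤ sq x / 16 := by unfold sq; nlinarith [sq_nonneg x.1]
    linarith [Real.exp_le_exp.mpr this]
  have e3 : 1 ≤ Real.exp (sq x / 16) := by
    refine Real.one_le_exp ?_
    unfold sq; positivity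
  have e4 : 4 * (‖Y‖ + ‖z‖) ≤ 4 * (‖Y‖ + ‖z‖) * Real.exp (sq x / 16) :=
    le_mul_of_one_le_right (by positivity) e3
  nlinarith

/-- the Gaussian mean is an entire function of the centre -/
theorem Hh_diff {Ω : Set (ℝ × ℝ)} {g : ℂ × ℂ → ℂ}
    (hg : DifferentiableOn ℂ g (Tube Ω)) (hgr : Gr Ω g) {Y : ℝ × ℝ} (hY : Y ∈ Ω) :
    Differentiable ℂ fun z => Hh g z Y := by
  intro z0
  obtain ⟨M, hM, hb⟩ := Th_bound hgr (singleton_subset_iff.mpr hY) isCompact_singleton (‖z0‖ + 1)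
  have hz : ∀ z ∈ Metric.ball z0 1, ‖z‖ ≤ ‖z0‖ + 1 := by
    intro z hz
    have : ‖z - z0‖ < 1 := by simpa [dist_eq_norm] using hz
    have h2 : ‖z‖ ≤ ‖z - z0‖ + ‖z0‖ := by
      simpa using norm_add_le (z - z0) z0
    linarith
  have key := hasFDerivAt_integral_of_dominated_of_fderiv_le (𝕜 := ℂ) (μ := (volume : Measure (ℝ × ℝ)))
    (F := fun z x => Th g z (pt x Y))
    (F' := fun z x => -((g (pt x Y) * W (pt x Y - z)) • Lw (pt x Y - z)))
    (x₀ := z0) (s := Metric.ball z0 1)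
    (bound := fun x => M * (8 + 4 * (‖Y‖ + (‖z0‖ + 1))) * Real.exp (-((5 / 16) * sq x)))
    (Metric.ball_mem_nhds z0 one_pos) ?_ (Th_int hg hgr z0 hY) ?_ ?_ ?_ ?_
  · exact key.differentiableAt
  · exact Eventually.of_forall fun z => (Th_cont hg z hY).aestronglyMeasurable
  · have c1 : Continuous fun x : ℝ × ℝ => pt x Y :=
      continuous_pt.comp (by fun_prop : Continuous fun x : ℝ × ℝ => (x, Y))
    have c2 : Continuous fun x : ℝ × ℝ => g (pt x Y) * W (pt x Y - z0) := Th_cont hg z0 hY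
    have c3 : Continuous fun x : ℝ × ℝ => Lw (pt x Y - z0) :=
      continuous_Lw.comp (c1.sub continuous_const)
    exact (c2.smul c3).neg.aestronglyMeasurable
  · refine ae_of_all _ fun x z hz' => ?_
    rw [norm_neg, norm_smul]
    have h1 := hb x Y z rfl (hz z hz')
    have h2 := norm_Lw_pt x Y z
    have h3 : (8 + 4 * (‖Y‖ + ‖z‖)) * Real.exp (sq x / 16)
        ≤ (8 + 4 * (‖Y‖ + (‖z0‖ + 1))) * Real.exp (sq x / 16) := by
      refine mul_le_mul_of_nonneg_right ?_ (Real.exp_pos _).le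
      linarith [hz z hz']
    calc ‖g (pt x Y) * W (pt x Y - z)‖ * ‖Lw (pt x Y - z)‖
        ≤ (M * Real.exp (-((3 / 8) * sq x))) *
          ((8 + 4 * (‖Y‖ + (‖z0‖ + 1))) * Real.exp (sq x / 16)) :=
          mul_le_mul h1 (h2.trans h3) (norm_nonneg _) (by positivity)
      _ = M * (8 + 4 * (‖Y‖ + (‖z0‖ + 1))) *
          (Real.exp (-((3 / 8) * sq x)) * Real.exp (sq x / 16)) := by ring
      _ = _ := by
          rw [← Real.exp_add]
          congr 2
          ring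
  · exact (int_gauss (by norm_num)).const_mul _
  · refine ae_of_all _ fun x z _ => ?_
    have h1 : HasFDerivAt (fun z : ℂ × ℂ => pt x Y - z) (-ContinuousLinearMap.id ℂ (ℂ × ℂ)) z := by
      simpa using (hasFDerivAt_id z).const_sub (pt x Y)
    have h2 := (hasFDerivAt_W (pt x Y - z)).comp z h1
    have h3 := h2.const_mul (g (pt x Y))
    refine h3.congr_fderiv ?_
    ext <;> simp [mul_assoc]

/-- **The statement used for the two-cone lemma.** `log|S|` has Gaussian means over the real planes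
of the tube which are the real part of one entire function. -/
theorem gauss_re {Ω : Set (ℝ × ℝ)} {g S : ℂ × ℂ → ℂ} (ho : IsOpen Ω) (hc : IsPreconnected Ω)
    (hne : Ω.Nonempty) (hg : DifferentiableOn ℂ g (Tube Ω)) (hgr : Gr Ω g)
    (hS : ∀ z ∈ Tube Ω, cexp (g z) = S z) :
    ∃ F : ℂ × ℂ → ℂ, Differentiable ℂ F ∧ ∀ z ∈ Tube Ω,
      Integrable (fun x : ℝ × ℝ => Real.log ‖S (z.1 + x.1, z.2 + x.2)‖ * Real.exp (-sq x)) ∧
      ∫ x : ℝ × ℝ, Real.log ‖S (z.1 + x.1, z.2 + x.2)‖ * Real.exp (-sq x) = (F z).re := by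
  obtain ⟨Y, hY⟩ := hne
  refine ⟨fun z => Hh g z Y, Hh_diff hg hgr hY, fun z hz => ?_⟩
  have e1 := gauss_eq ho hc hg hgr hY hz
  have hmem : ∀ x : ℝ × ℝ, (z.1 + x.1, z.2 + x.2) ∈ Tube Ω := by
    intro x
    simpa [Tube] using hz
  have hlog : ∀ x : ℝ × ℝ, Real.log ‖S (z.1 + x.1, z.2 + x.2)‖ * Real.exp (-sq x)
      = (g (z.1 + x.1, z.2 + x.2) * (Real.exp (-sq x) : ℂ)).re := by
    intro x
    rw [← hS _ (hmem x), norm_exp, Real.log_exp, re_mul_ofReal]
  have hi : Integrable fun x : ℝ × ℝ => g (z.1 + x.1, z.2 + x.2) * (Real.exp (-sq x) : ℂ) := by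
    have h1 := Th_int hg hgr z (Y := (z.1.im, z.2.im)) hz
    have h2 := h1.comp_add_left (z.1.re, z.2.re)
    refine h2.congr (ae_of_all _ fun x => ?_)
    have e : pt ((z.1.re, z.2.re) + x) (z.1.im, z.2.im) = (z.1 + x.1, z.2 + x.2) := by
      refine Prod.ext ?_ ?_
      · simp only [pt, Prod.fst_add, ofReal_add]
        conv_rhs => rw [← re_add_im z.1]
        ring
      · simp only [pt, Prod.snd_add, ofReal_add]
        conv_rhs => rw [← re_add_im z.2]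
        ring
    simp only [Th, e]
    congr 1
    simp only [W, sq, Prod.fst_sub, Prod.snd_sub]
    push_cast
    congr 1
    ring
  simp only [hlog]
  refine ⟨hi.re, ?_⟩
  rw [← e1]
  exact integral_re hi

end Vale.Agent.P097.H127
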