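import Mathlib

open MeasureTheory Complex Set Filter Topology

namespace Vale.Agent.P097.H127

/-- contour shift for one variable, with an integrable majorant that tends to zero -/
theorem shift1 {h : ℂ → ℂ} {a b : ℝ} {B : ℝ → ℝ}
    (hd : DifferentiableOn ℂ h {z | z.im ∈ uIcc a b})
    (hB : ∀ x y : ℝ, y ∈ uIcc a b → ‖h (x + y * I)‖ ≤ B x)
    (hBi : Integrable B) (hB0 : Tendsto B atTop (𝓝 0)) (hB1 : Tendsto B atBot (𝓝 0)) :
    ∫ x : ℝ, h (x + a * I) = ∫ x : ℝ, h (x + b * I) := by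
  have hcont : ∀ y ∈ uIcc a b, Continuous fun x : ℝ => h (x + y * I) := by
    intro y hy
    have h1 : ContinuousOn h {z | z.im ∈ uIcc a b} := hd.continuousOn
    refine h1.comp_continuous (by fun_prop) (fun x => ?_)
    simpa using hy
  have hint : ∀ y ∈ uIcc a b, Integrable fun x : ℝ => h (x + y * I) := by
    intro y hy
    exact hBi.mono' (hcont y hy).aestronglyMeasurable (ae_of_all _ fun x => hB x y hy)
  have ha : a ∈ uIcc a b := left_mem_uIcc
  have hb : b ∈ uIcc a b := right_mem_uIcc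
  have rect : ∀ n : ℝ, (∫ x : ℝ in (-n)..n, h (x + a * I)) - (∫ x : ℝ in (-n)..n, h (x + b * I))
      + (I • ∫ y : ℝ in a..b, h (n + y * I)) - I • ∫ y : ℝ in a..b, h ((-n : ℝ) + y * I) = 0 := by
    intro n
    have := Complex.integral_boundary_rect_eq_zero_of_differentiableOn h
      (⟨-n, a⟩ : ℂ) (⟨n, b⟩ : ℂ) (hd.mono ?_)
    · simpa using this
    · intro z hz
      have := hz.2
      simpa using this
  have t1 : Tendsto (fun n : ℝ => ∫ x : ℝ in (-n)..n, h (x + a * I)) atTop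
      (𝓝 (∫ x : ℝ, h (x + a * I))) :=
    intervalIntegral_tendsto_integral (hint a ha) tendsto_neg_atTop_atBot tendsto_id
  have t2 : Tendsto (fun n : ℝ => ∫ x : ℝ in (-n)..n, h (x + b * I)) atTop
      (𝓝 (∫ x : ℝ, h (x + b * I))) :=
    intervalIntegral_tendsto_integral (hint b hb) tendsto_neg_atTop_atBot tendsto_id
  have t3 : Tendsto (fun n : ℝ => I • ∫ y : ℝ in a..b, h (n + y * I)) atTop (𝓝 0) := by
    have : Tendsto (fun n : ℝ => ∫ y : ℝ in a..b, h (n + y * I)) atTop (𝓝 0) := by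
      rw [tendsto_zero_iff_norm_tendsto_zero]
      have hle : ∀ n : ℝ, ‖∫ y : ℝ in a..b, h (n + y * I)‖ ≤ B n * |b - a| := by
        intro n
        refine intervalIntegral.norm_integral_le_of_norm_le_const fun y hy => ?_
        exact hB n y (uIoc_subset_uIcc hy)
      refine squeeze_zero (fun n => norm_nonneg _) hle ?_
      simpa using hB0.mul_const |b - a|
    simpa using this.const_smul I
  have t4 : Tendsto (fun n : ℝ => I • ∫ y : ℝ in a..b, h ((-n : ℝ) + y * I)) atTop (𝓝 0) := by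
    have : Tendsto (fun n : ℝ => ∫ y : ℝ in a..b, h ((-n : ℝ) + y * I)) atTop (𝓝 0) := by
      rw [tendsto_zero_iff_norm_tendsto_zero]
      have hle : ∀ n : ℝ, ‖∫ y : ℝ in a..b, h ((-n : ℝ) + y * I)‖ ≤ B (-n) * |b - a| := by
        intro n
        refine intervalIntegral.norm_integral_le_of_norm_le_const fun y hy => ?_
        exact hB (-n) y (uIoc_subset_uIcc hy)
      refine squeeze_zero (fun n => norm_nonneg _) hle ?_
      have := (hB1.comp tendsto_neg_atTop_atBot).mul_const |b - a|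
      simpa using this
    simpa using this.const_smul I
  have t5 := ((t1.sub t2).add t3).sub t4
  have t6 : Tendsto (fun n : ℝ => (0 : ℂ)) atTop
      (𝓝 ((∫ x : ℝ, h (x + a * I)) - (∫ x : ℝ, h (x + b * I)) + 0 - 0)) := by
    refine t5.congr fun n => ?_
    exact rect n
  have := tendsto_nhds_unique t6 tendsto_const_nhds
  simp at this
  exact sub_eq_zero.mp this

/-- the tube over a set of imaginary parts -/
def Tube (Ω : Set (ℝ × ℝ)) : Set (ℂ × ℂ) := {z | (z.1.im, z.2.im) ∈ Ω}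

/-- the point with real part `x` and imaginary part `Y` -/
def pt (x Y : ℝ × ℝ) : ℂ × ℂ := ((x.1 : ℂ) + Y.1 * I, (x.2 : ℂ) + Y.2 * I)

/-- the Gaussian weight as an entire function -/
noncomputable def W (z : ℂ × ℂ) : ℂ := cexp (-(z.1 ^ 2 + z.2 ^ 2))

/-- square length of a real point -/
def sq (x : ℝ × ℝ) : ℝ := x.1 ^ 2 + x.2 ^ 2

/-- growth over compact sets of imaginary parts -/
def Gr (Ω : Set (ℝ × ℝ)) (g : ℂ × ℂ → ℂ) : Prop :=
  ∀ Λ ⊆ Ω, IsCompact Λ → ∃ C : ℝ, ∀ x Y : ℝ × ℝ, Y ∈ Λ → ‖g (pt x Y)‖ ≤ C * Real.exp (sq x / 8)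

theorem isOpen_Tube {Ω : Set (ℝ × ℝ)} (h : IsOpen Ω) : IsOpen (Tube Ω) := by
  refine h.preimage ?_
  fun_prop

theorem pt_mem {Ω : Set (ℝ × ℝ)} {x Y : ℝ × ℝ} : pt x Y ∈ Tube Ω ↔ Y ∈ Ω := by
  simp [pt, Tube]

theorem continuous_pt : Continuous fun p : (ℝ × ℝ) × (ℝ × ℝ) => pt p.1 p.2 := by
  unfold pt; fun_prop

theorem W_diff : Differentiable ℂ W := by
  unfold W; fun_prop

theorem norm_W (x Y : ℝ × ℝ) (z : ℂ × ℂ) : ‖W (pt x Y - z)‖ ≤ Real.exp (-(sq x / 2)) *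
    Real.exp (z.1.re ^ 2 + z.2.re ^ 2 + (Y.1 - z.1.im) ^ 2 + (Y.2 - z.2.im) ^ 2) := by
  unfold W
  rw [norm_exp, ← Real.exp_add]
  refine Real.exp_le_exp.mpr ?_
  simp only [pt, sq, Prod.fst_sub, Prod.snd_sub, neg_re, add_re, pow_two, mul_re, sub_re, sub_im,
    ofReal_re, ofReal_im, add_im, mul_im, I_re, I_im]
  nlinarith [sq_nonneg (x.1 - 2 * z.1.re), sq_nonneg (x.2 - 2 * z.2.re)]

theorem int_gauss {c : ℝ} (hc : 0 < c) : Integrable fun x : ℝ × ℝ => Real.exp (-(c * sq x)) := by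
  have h1 : Integrable fun t : ℝ => Real.exp (-c * t ^ 2) := integrable_exp_neg_mul_sq hc
  have h2 := h1.mul_prod h1
  refine (h2.congr ?_)
  refine ae_of_all _ fun x => ?_
  simp only [sq]
  rw [← Real.exp_add]
  congr 1
  ring

/-- the integrand -/
noncomputable def Th (g : ℂ × ℂ → ℂ) (z ζ : ℂ × ℂ) : ℂ := g ζ * W (ζ - z)

theorem Th_bound {Ω Λ : Set (ℝ × ℝ)} {g : ℂ × ℂ → ℂ} (hgr : Gr Ω g) (hΛ : Λ ⊆ Ω)
    (hc : IsCompact Λ) (R : ℝ) : ∃ M : ℝ, 0 ≤ M ∧ ∀ x Y : ℝ × ℝ, ∀ z : ℂ × ℂ, Y ∈ Λ → ‖z‖ ≤ R →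
      ‖Th g z (pt x Y)‖ ≤ M * Real.exp (-((3 / 8) * sq x)) := by
  obtain ⟨C, hC⟩ := hgr Λ hΛ hc
  obtain ⟨D, hD⟩ := hc.isBounded.exists_norm_le
  refine ⟨|C| * Real.exp (2 * R ^ 2 + 2 * (|D| + |R|) ^ 2), by positivity, ?_⟩
  intro x Y z hY hz
  have h1 := hC x Y hY
  have h2 := norm_W x Y z
  have h3 : ‖Y‖ ≤ |D| := (hD Y hY).trans (le_abs_self D)
  have hz' : ‖z‖ ≤ |R| := hz.trans (le_abs_self R)
  have z1 : |z.1.re| ≤ |R| := (abs_re_le_norm _).trans ((norm_fst_le z).trans hz')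
  have z2 : |z.2.re| ≤ |R| := (abs_re_le_norm _).trans ((norm_snd_le z).trans hz')
  have z3 : |z.1.im| ≤ |R| := (abs_im_le_norm _).trans ((norm_fst_le z).trans hz')
  have z4 : |z.2.im| ≤ |R| := (abs_im_le_norm _).trans ((norm_snd_le z).trans hz')
  have y1 : |Y.1| ≤ |D| := (norm_fst_le Y).trans h3
  have y2 : |Y.2| ≤ |D| := (norm_snd_le Y).trans h3
  have e1 : z.1.re ^ 2 ≤ R ^ 2 := sq_le_sq.mpr z1
  have e2 : z.2.re ^ 2 ≤ R ^ 2 := sq_le_sq.mpr z2
  have e3 : (Y.1 - z.1.im) ^ 2 ≤ (|D| + |R|) ^ 2 := by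
    rw [sq_le_sq, abs_of_nonneg (by positivity : (0 : ℝ) ≤ |D| + |R|)]
    exact (abs_sub _ _).trans (add_le_add y1 z3)
  have e4 : (Y.2 - z.2.im) ^ 2 ≤ (|D| + |R|) ^ 2 := by
    rw [sq_le_sq, abs_of_nonneg (by positivity : (0 : ℝ) ≤ |D| + |R|)]
    exact (abs_sub _ _).trans (add_le_add y2 z4)
  have h4 : ‖W (pt x Y - z)‖ ≤ Real.exp (-(sq x / 2)) *
      Real.exp (2 * R ^ 2 + 2 * (|D| + |R|) ^ 2) := by
    refine h2.trans (mul_le_mul_of_nonneg_left (Real.exp_le_exp.mpr ?_) (Real.exp_pos _).le)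
    linarith
  have h5 : ‖g (pt x Y)‖ ≤ |C| * Real.exp (sq x / 8) :=
    h1.trans (mul_le_mul_of_nonneg_right (le_abs_self C) (Real.exp_pos _).le)
  unfold Th
  rw [norm_mul]
  calc ‖g (pt x Y)‖ * ‖W (pt x Y - z)‖
      ≤ (|C| * Real.exp (sq x / 8)) * (Real.exp (-(sq x / 2)) *
        Real.exp (2 * R ^ 2 + 2 * (|D| + |R|) ^ 2)) :=
        mul_le_mul h5 h4 (norm_nonneg _) (by positivity)
    _ = |C| * Real.exp (2 * R ^ 2 + 2 * (|D| + |R|) ^ 2) *
        (Real.exp (sq x / 8) * Real.exp (-(sq x / 2))) := by ring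
    _ = _ := by
        rw [← Real.exp_add]
        congr 2
        ring

theorem Th_cont {Ω : Set (ℝ × ℝ)} {g : ℂ × ℂ → ℂ}
    (hg : DifferentiableOn ℂ g (Tube Ω)) (z : ℂ × ℂ) {Y : ℝ × ℝ} (hY : Y ∈ Ω) :
    Continuous fun x => Th g z (pt x Y) := by
  have h1 : ContinuousOn (Th g z) (Tube Ω) := by
    refine hg.continuousOn.mul ?_
    exact (W_diff.continuous.comp (continuous_id.sub continuous_const)).continuousOn
  refine h1.comp_continuous ?_ (fun x => pt_mem.mpr hY)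
  exact continuous_pt.comp (by fun_prop : Continuous fun x : ℝ × ℝ => (x, Y))

theorem Th_int {Ω : Set (ℝ × ℝ)} {g : ℂ × ℂ → ℂ}
    (hg : DifferentiableOn ℂ g (Tube Ω)) (hgr : Gr Ω g) (z : ℂ × ℂ) {Y : ℝ × ℝ} (hY : Y ∈ Ω) :
    Integrable fun x => Th g z (pt x Y) := by
  obtain ⟨M, hM, hb⟩ := Th_bound hgr (singleton_subset_iff.mpr hY) isCompact_singleton ‖z‖
  refine ((int_gauss (by norm_num : (0 : ℝ) < 3 / 8)).const_mul M).mono'
    (Th_cont hg z hY).aestronglyMeasurable (ae_of_all _ fun x => ?_)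
  exact hb x Y z rfl le_rfl

/-- the integral over the real plane at height `Y` -/
noncomputable def Hh (g : ℂ × ℂ → ℂ) (z : ℂ × ℂ) (Y : ℝ × ℝ) : ℂ := ∫ x : ℝ × ℝ, Th g z (pt x Y)

theorem Th_diff {Ω : Set (ℝ × ℝ)} {g : ℂ × ℂ → ℂ}
    (hg : DifferentiableOn ℂ g (Tube Ω)) (z : ℂ × ℂ) : DifferentiableOn ℂ (Th g z) (Tube Ω) := by
  refine hg.mul ?_
  exact (W_diff.comp (differentiable_id.sub (differentiable_const z))).differentiableOn

theorem gauss_tendsto {c M : ℝ} (hc : 0 < c) (a : ℝ) :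
    Tendsto (fun t : ℝ => M * Real.exp (-(c * (a + t ^ 2)))) atTop (𝓝 0) ∧
    Tendsto (fun t : ℝ => M * Real.exp (-(c * (a + t ^ 2)))) atBot (𝓝 0) := by
  have h0 : Tendsto (fun s : ℝ => M * Real.exp (-(c * (a + s)))) atTop (𝓝 0) := by
    have h1 : Tendsto (fun s : ℝ => -(c * (a + s))) atTop atBot := by
      refine tendsto_neg_atTop_atBot.comp ?_
      exact (tendsto_atTop_add_const_left _ a tendsto_id).const_mul_atTop hc
    simpa using (Real.tendsto_exp_atBot.comp h1).const_mul M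
  refine ⟨h0.comp (tendsto_pow_atTop two_ne_zero), ?_⟩
  have h2 : Tendsto (fun t : ℝ => t ^ 2) atBot atTop := by
    have := (tendsto_pow_atTop (α := ℝ) two_ne_zero).comp tendsto_neg_atBot_atTop
    refine this.congr fun t => ?_
    simp
  exact h0.comp h2

theorem Hh_eq2 {Ω : Set (ℝ × ℝ)} {g : ℂ × ℂ → ℂ}
    (hg : DifferentiableOn ℂ g (Tube Ω)) (hgr : Gr Ω g) (z : ℂ × ℂ) {m r r' : ℝ}
    (hY : ∀ s ∈ uIcc r r', (m, s) ∈ Ω) : Hh g z (m, r) = Hh g z (m, r') := by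
  have hsub : (fun s : ℝ => (m, s)) '' uIcc r r' ⊆ Ω := by
    rintro _ ⟨s, hs, rfl⟩; exact hY s hs
  obtain ⟨M, hM, hb⟩ := Th_bound hgr hsub
    (isCompact_uIcc.image (by fun_prop)) ‖z‖
  have i1 := Th_int hg hgr z (hY r left_mem_uIcc)
  have i2 := Th_int hg hgr z (hY r' right_mem_uIcc)
  unfold Hh
  rw [Measure.volume_eq_prod] at i1 i2 ⊢
  rw [integral_prod _ i1, integral_prod _ i2]
  refine integral_congr_ae (ae_of_all _ fun x1 => ?_)
  have := shift1 (h := fun ζ => Th g z ((x1 : ℂ) + m * I, ζ)) (a := r) (b := r')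
    (B := fun t => M * Real.exp (-((3 / 8) * (x1 ^ 2 + t ^ 2)))) ?_ ?_ ?_ ?_ ?_
  · simpa [pt] using this
  · refine (Th_diff hg z).comp (by fun_prop) ?_
    intro ζ hζ
    have : (m, ζ.im) ∈ Ω := hY _ hζ
    simpa [Tube] using this
  · intro x y hy
    have := hb (x1, x) (m, y) z ⟨y, hy, rfl⟩ le_rfl
    simpa [pt, sq] using this
  · have h1 : Integrable fun t : ℝ => Real.exp (-(3 / 8) * t ^ 2) :=
      integrable_exp_neg_mul_sq (by norm_num)
    refine (h1.const_mul (M * Real.exp (-((3 / 8) * x1 ^ 2)))).congr (ae_of_all _ fun t => ?_)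
    show M * Real.exp (-((3 / 8) * x1 ^ 2)) * Real.exp (-(3 / 8) * t ^ 2)
      = M * Real.exp (-((3 / 8) * (x1 ^ 2 + t ^ 2)))
    rw [mul_assoc, ← Real.exp_add]
    congr 2
    ring
  · exact (gauss_tendsto (by norm_num) _).1
  · exact (gauss_tendsto (by norm_num) _).2

theorem Hh_eq1 {Ω : Set (ℝ × ℝ)} {g : ℂ × ℂ → ℂ}
    (hg : DifferentiableOn ℂ g (Tube Ω)) (hgr : Gr Ω g) (z : ℂ × ℂ) {r m m' : ℝ}
    (hY : ∀ s ∈ uIcc m m', (s, r) ∈ Ω) : Hh g z (m, r) = Hh g z (m', r) := by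
  have hsub : (fun s : ℝ => (s, r)) '' uIcc m m' ⊆ Ω := by
    rintro _ ⟨s, hs, rfl⟩; exact hY s hs
  obtain ⟨M, hM, hb⟩ := Th_bound hgr hsub
    (isCompact_uIcc.image (by fun_prop)) ‖z‖
  have i1 := Th_int hg hgr z (hY m left_mem_uIcc)
  have i2 := Th_int hg hgr z (hY m' right_mem_uIcc)
  unfold Hh
  rw [Measure.volume_eq_prod] at i1 i2 ⊢
  rw [integral_prod_symm _ i1, integral_prod_symm _ i2]
  refine integral_congr_ae (ae_of_all _ fun x2 => ?_)
  have := shift1 (h := fun ζ => Th g z (ζ, (x2 : ℂ) + r * I)) (a := m) (b := m')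
    (B := fun t => M * Real.exp (-((3 / 8) * (x2 ^ 2 + t ^ 2)))) ?_ ?_ ?_ ?_ ?_
  · simpa [pt] using this
  · refine (Th_diff hg z).comp (by fun_prop) ?_
    intro ζ hζ
    have : (ζ.im, r) ∈ Ω := hY _ hζ
    simpa [Tube] using this
  · intro x y hy
    have := hb (x, x2) (y, r) z ⟨y, hy, rfl⟩ le_rfl
    simpa [pt, sq, add_comm] using this
  · have h1 : Integrable fun t : ℝ => Real.exp (-(3 / 8) * t ^ 2) :=
      integrable_exp_neg_mul_sq (by norm_num)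
    refine (h1.const_mul (M * Real.exp (-((3 / 8) * x2 ^ 2)))).congr (ae_of_all _ fun t => ?_)
    show M * Real.exp (-((3 / 8) * x2 ^ 2)) * Real.exp (-(3 / 8) * t ^ 2)
      = M * Real.exp (-((3 / 8) * (x2 ^ 2 + t ^ 2)))
    rw [mul_assoc, ← Real.exp_add]
    congr 2
    ring
  · exact (gauss_tendsto (by norm_num) _).1
  · exact (gauss_tendsto (by norm_num) _).2

/-- the integral does not depend on the height -/
theorem Hh_const {Ω : Set (ℝ × ℝ)} {g : ℂ × ℂ → ℂ} (ho : IsOpen Ω) (hc : IsPreconnected Ω)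
    (hg : DifferentiableOn ℂ g (Tube Ω)) (hgr : Gr Ω g) (z : ℂ × ℂ) {Y Y' : ℝ × ℝ}
    (hY : Y ∈ Ω) (hY' : Y' ∈ Ω) : Hh g z Y = Hh g z Y' := by
  refine hc.induction₂ (fun a b => Hh g z a = Hh g z b) ?_ ?_ ?_ hY hY'
  · intro a ha
    obtain ⟨ε, hε, hball⟩ := Metric.isOpen_iff.mp ho a ha
    have : Metric.ball a ε ∈ 𝓝[Ω] a := mem_nhdsWithin_of_mem_nhds (Metric.ball_mem_nhds a hε)
    filter_upwards [this] with b hb
    rw [mem_ball_iff_norm] at hb
    have hb1 : |b.1 - a.1| < ε := (norm_fst_le (b - a)).trans_lt hb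
    have hb2 : |b.2 - a.2| < ε := (norm_snd_le (b - a)).trans_lt hb
    have key : ∀ s t : ℝ, |s - a.1| < ε → |t - a.2| < ε → (s, t) ∈ Ω := by
      intro s t hs ht
      refine hball ?_
      rw [mem_ball_iff_norm, Prod.norm_def]
      exact max_lt hs ht
    have seg : ∀ {u v s : ℝ}, |v - u| < ε → s ∈ uIcc u v → |s - u| < ε := by
      intro u v s huv hs
      refine lt_of_le_of_lt ?_ huv
      exact abs_sub_left_of_mem_uIcc hs
    calc Hh g z a = Hh g z (a.1, a.2) := rfl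
      _ = Hh g z (a.1, b.2) := Hh_eq2 hg hgr z (fun s hs => key _ _ (by simpa using hε) (seg hb2 hs))
      _ = Hh g z (b.1, b.2) := Hh_eq1 hg hgr z (fun s hs => key _ _ (seg hb1 hs) hb2)
      _ = Hh g z b := rfl
  · intro a b c _ _ _ h1 h2
    exact h1.trans h2
  · intro a b _ _ h
    exact h.symm

/-- **Gaussian means of a holomorphic function over the real planes of a tube extend to an entire
function.** -/
theorem gauss_eq {Ω : Set (ℝ × ℝ)} {g : ℂ × ℂ → ℂ} (ho : IsOpen Ω) (hc : IsPreconnected Ω)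
    (hg : DifferentiableOn ℂ g (Tube Ω)) (hgr : Gr Ω g) {Y : ℝ × ℝ} (hY : Y ∈ Ω) {z : ℂ × ℂ}
    (hz : z ∈ Tube Ω) :
    ∫ x : ℝ × ℝ, g (z.1 + x.1, z.2 + x.2) * (Real.exp (-sq x) : ℂ) = Hh g z Y := by
  rw [Hh_const ho hc hg hgr z hY hz]
  unfold Hh
  rw [← integral_add_left_eq_self (fun x => Th g z (pt x (z.1.im, z.2.im))) (z.1.re, z.2.re)]
  refine integral_congr_ae (ae_of_all _ fun x => ?_)
  have e : pt ((z.1.re, z.2.re) + x) (z.1.im, z.2.im) = (z.1 + x.1, z.2 + x.2) := by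
    refine Prod.ext ?_ ?_
    · simp only [pt, Prod.fst_add, ofReal_add]
      conv_rhs => rw [← re_add_im z.1]
      ring
    · simp only [pt, Prod.snd_add, ofReal_add]
      conv_rhs => rw [← re_add_im z.2]
      ring
  simp only [Th, e]
  congr 1
  simp only [W, sq, Prod.fst_sub, Prod.snd_sub]
  push_cast
  congr 1
  ring

end Vale.Agent.P097.H127
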