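import Vale.Agent.P097.TC.Defs
import Vale.Agent.P097.H593.T3
import Vale.Agent.P097.H127.Entire

/-!
P097, row A4.5 (T-lemma), part (T2) with the Gaussian weight in the literal form of `TC.Tlem`:
the Gaussian means of `log ‖S‖` converge at the edge, over the whole tube on the small cone.
-/

open MeasureTheory Complex Set Filter Topology Metric

namespace Vale.Agent.P097.H127

section general

variable {E : Type*} [NormedAddCommGroup E] [NormedSpace ℂ E]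

/-- gradient bound from a one sided bound of the real part -/
theorem grad_le {g : E → ℂ} {z : E} {δ A : ℝ} (hδ : 0 < δ) (hA : 0 < A)
    (hg : DifferentiableOn ℂ g (ball z δ)) (hb : ∀ w ∈ ball z δ, (g w).re - (g z).re ≤ A) :
    ‖fderiv ℂ g z‖ ≤ 4 * A / δ := by
  refine norm_fderiv_le_of_lip' ℂ (by positivity) ?_
  filter_upwards [ball_mem_nhds z (half_pos hδ)] with w hw
  rw [mem_ball, dist_eq_norm] at hw
  rcases eq_or_ne w z with rfl | hne
  · simp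
  have hv : 0 < ‖w - z‖ := norm_pos_iff.mpr (sub_ne_zero.mpr hne)
  have hmaps : ∀ t ∈ ball (0 : ℂ) (δ / ‖w - z‖), z + t • (w - z) ∈ ball z δ := by
    intro t ht
    rw [mem_ball_zero_iff, lt_div_iff₀ hv] at ht
    rw [mem_ball, dist_eq_norm, add_sub_cancel_left, norm_smul]
    exact ht
  have hd : DifferentiableOn ℂ (fun t : ℂ => g (z + t • (w - z)) - g z)
      (ball 0 (δ / ‖w - z‖)) := by
    refine (hg.comp ?_ hmaps).sub_const _
    fun_prop
  have h2 : 2 < δ / ‖w - z‖ := by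
    rw [lt_div_iff₀ hv]; linarith
  have key := Complex.borelCaratheodory_zero (f := fun t : ℂ => g (z + t • (w - z)) - g z)
    (R := δ / ‖w - z‖) (z := 1) hA hd (fun t ht => by
      simpa using hb _ (hmaps t ht)) (by linarith) (by simpa using by linarith) (by simp)
  simp only [one_smul, add_sub_cancel, norm_one, mul_one] at key
  refine key.trans ?_
  have h3 : δ / ‖w - z‖ / 2 ≤ δ / ‖w - z‖ - 1 := by linarith
  calc 2 * A / (δ / ‖w - z‖ - 1) ≤ 2 * A / (δ / ‖w - z‖ / 2) :=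
        div_le_div_of_nonneg_left (by positivity) (by positivity) h3
    _ = 4 * A / δ * ‖w - z‖ := by field_simp; ring

/-- a continuous logarithm of a holomorphic function is holomorphic -/
theorem hol_of_exp {U : Set E} (hU : IsOpen U) {f g : E → ℂ} (hf : DifferentiableOn ℂ f U)
    (hg : ContinuousOn g U) (h : ∀ z ∈ U, Complex.exp (g z) = f z) : DifferentiableOn ℂ g U := by
  intro z hz
  have hn := hU.mem_nhds hz
  have hfz : f z ≠ 0 := by rw [← h z hz]; exact Complex.exp_ne_zero _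
  have hgz : ContinuousAt g z := hg.continuousAt hn
  have h1 : ∀ᶠ w in 𝓝 z, |(g w - g z).im| < Real.pi := by
    have : ContinuousAt (fun w => |(g w - g z).im|) z :=
      (Complex.continuous_im.continuousAt.comp (hgz.sub continuousAt_const)).abs
    have h0 : |(g z - g z).im| < Real.pi := by simpa using Real.pi_pos
    exact this.eventually_lt_const h0
  have h2 : g =ᶠ[𝓝 z] fun w => g z + Complex.log (f w / f z) := by
    filter_upwards [h1, hn] with w hw hwU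
    have h3 : f w / f z = Complex.exp (g w - g z) := by rw [Complex.exp_sub, h w hwU, h z hz]
    rw [h3, Complex.log_exp (by linarith [(abs_lt.mp hw).1]) (by linarith [(abs_lt.mp hw).2])]
    ring
  have h4 : DifferentiableAt ℂ (fun w => g z + Complex.log (f w / f z)) z := by
    have h5 : DifferentiableAt ℂ (fun w => f w / f z) z := by
      simp only [div_eq_mul_inv]
      exact (hf.differentiableAt hn).mul_const _
    refine DifferentiableAt.const_add _ (h5.clog ?_)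
    rw [div_self hfz]
    exact Complex.one_mem_slitPlane
  exact (h4.congr_of_eventuallyEq h2).differentiableWithinAt

/-- holomorphic logarithm of a zero free function on a convex open set -/
theorem exists_hlog {U : Set E} (hU : IsOpen U) (hc : Convex ℝ U) {f : E → ℂ}
    (hf : DifferentiableOn ℂ f U) (h0 : ∀ z ∈ U, f z ≠ 0) :
    ∃ g : E → ℂ, DifferentiableOn ℂ g U ∧ ∀ z ∈ U, Complex.exp (g z) = f z := by
  rcases U.eq_empty_or_nonempty with he | hne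
  · subst he
    exact ⟨0, differentiableOn_empty, by simp⟩
  have hcs : ContractibleSpace U := hc.contractibleSpace hne
  have hsc : IsSimplyConnected U := SimplyConnectedSpace.ofContractible _
  obtain ⟨L, hL, hLe⟩ := Complex.exists_continuousOn_eqOn_exp_comp hsc hU hf.continuousOn
    (by rintro ⟨z, hz, h1⟩; exact h0 z hz h1)
  exact ⟨L, hol_of_exp hU hf hL (fun z hz => hLe hz), fun z hz => hLe hz⟩

end general

theorem pow_le_gauss (D t : ℝ) (hD : 0 ≤ D) (ht : 0 ≤ t) (n : ℕ) :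
    (D + t) ^ n ≤ (n.factorial * Real.exp (D + 2)) * Real.exp (t ^ 2 / 8) := by
  have h1 : (D + t) ^ n / n.factorial ≤ Real.exp (D + t) :=
    Real.pow_div_factorial_le_exp _ (by positivity) n
  rw [div_le_iff₀ (by positivity)] at h1
  have h2 : Real.exp (D + t) ≤ Real.exp (D + 2) * Real.exp (t ^ 2 / 8) := by
    rw [← Real.exp_add]
    refine Real.exp_le_exp.mpr ?_
    nlinarith [sq_nonneg (t - 4)]
  calc (D + t) ^ n ≤ Real.exp (D + t) * n.factorial := h1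
    _ ≤ (Real.exp (D + 2) * Real.exp (t ^ 2 / 8)) * n.factorial :=
        mul_le_mul_of_nonneg_right h2 (by positivity)
    _ = _ := by ring

theorem norm_sq_le (x : ℝ × ℝ) : ‖x‖ ^ 2 ≤ sq x := by
  rw [Prod.norm_def]
  unfold sq
  rcases max_cases ‖x.1‖ ‖x.2‖ with ⟨h, -⟩ | ⟨h, -⟩
  · rw [h, Real.norm_eq_abs, sq_abs]; nlinarith [sq_nonneg x.2]
  · rw [h, Real.norm_eq_abs, sq_abs]; nlinarith [sq_nonneg x.1]

/-- growth of a holomorphic function in a tube from the growth of its real part -/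
theorem growth {K : Set (ℝ × ℝ)} (hK : IsOpen K) (hKc : Convex ℝ K) {g : ℂ × ℂ → ℂ}
    (hg : DifferentiableOn ℂ g (Tube K))
    (hb : ∀ Y : Set (ℝ × ℝ), IsCompact Y → Y ⊆ K → ∃ (C : ℝ) (n : ℕ), ∀ z ∈ Tube Y,
      |(g z).re| ≤ C * (1 + ‖TC.ft z‖) ^ n) : Gr K g := by
  intro Λ hΛ hΛc
  rcases Λ.eq_empty_or_nonempty with he | ⟨y₀, hy₀⟩
  · exact ⟨0, fun x Y hY => by rw [he] at hY; exact hY.elim⟩
  set m : ℝ × (ℝ × ℝ) → ℝ × ℝ := fun p => (1 - p.1) • y₀ + p.1 • p.2 with hm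
  have hmc : Continuous m := by rw [hm]; fun_prop
  set Λ' : Set (ℝ × ℝ) := m '' (Icc (0 : ℝ) 1 ×ˢ Λ) with hΛ'
  have hc' : IsCompact Λ' := (isCompact_Icc.prod hΛc).image hmc
  have hs' : Λ' ⊆ K := by
    rintro _ ⟨⟨t, Y⟩, ⟨ht, hY⟩, rfl⟩
    exact hKc (hΛ hy₀) (hΛ hY) (by linarith [ht.2]) ht.1 (by ring)
  obtain ⟨δ, hδ, hδs⟩ := hc'.exists_cthickening_subset_open hK hs'
  obtain ⟨C, n, hC⟩ := hb (cthickening δ Λ') hc'.cthickening hδs
  obtain ⟨D₀, hD₀⟩ := hΛc.isBounded.exists_norm_le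
  set D : ℝ := 1 + δ + |D₀| + ‖y₀‖ with hD
  have hD1 : 1 ≤ D := by rw [hD]; nlinarith [abs_nonneg D₀, norm_nonneg y₀]
  set z₀ : ℂ × ℂ := pt 0 y₀ with hz₀
  set B : ℝ := ‖g z₀‖ + 4 * (2 * |C| + 1) / δ with hB
  have hB0 : 0 ≤ B := by positivity
  refine ⟨B * ((n + 1).factorial * Real.exp (D + 2)), fun x Y hY => ?_⟩
  have hx0 := norm_nonneg x
  -- gradient bound at the points of the segment
  have hgr : ∀ z : ℂ × ℂ, (z.1.im, z.2.im) ∈ Λ' → ‖TC.ft z‖ ≤ ‖x‖ →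
      ‖fderiv ℂ g z‖ ≤ 4 * ((2 * |C| + 1) * (D + ‖x‖) ^ n) / δ := by
    intro z hz hzx
    have him : ∀ w ∈ ball z δ, w ∈ Tube (cthickening δ Λ') := by
      intro w hw
      rw [mem_ball, dist_eq_norm] at hw
      refine mem_cthickening_of_dist_le _ (z.1.im, z.2.im) δ Λ' hz ?_
      rw [Prod.dist_eq]
      refine max_le ?_ ?_
      · have : |(w - z).1.im| ≤ ‖w - z‖ := (abs_im_le_norm _).trans (norm_fst_le _)
        rw [Real.dist_eq]; simpa using this.trans hw.le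
      · have : |(w - z).2.im| ≤ ‖w - z‖ := (abs_im_le_norm _).trans (norm_snd_le _)
        rw [Real.dist_eq]; simpa using this.trans hw.le
    have hft : ∀ w ∈ ball z δ, 1 + ‖TC.ft w‖ ≤ D + ‖x‖ := by
      intro w hw
      rw [mem_ball, dist_eq_norm] at hw
      have h1 : ‖TC.ft w - TC.ft z‖ ≤ ‖w - z‖ := by
        rw [Prod.norm_def]
        refine max_le ?_ ?_
        · have : |(w - z).1.re| ≤ ‖w - z‖ := (abs_re_le_norm _).trans (norm_fst_le _)
          simpa [TC.ft] using this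
        · have : |(w - z).2.re| ≤ ‖w - z‖ := (abs_re_le_norm _).trans (norm_snd_le _)
          simpa [TC.ft] using this
      have h2 : ‖TC.ft w‖ ≤ ‖TC.ft w - TC.ft z‖ + ‖TC.ft z‖ := by
        simpa using norm_add_le (TC.ft w - TC.ft z) (TC.ft z)
      have := abs_nonneg D₀
      have := norm_nonneg y₀
      rw [hD]; linarith
    have hre : ∀ w ∈ ball z δ, |(g w).re| ≤ |C| * (D + ‖x‖) ^ n := by
      intro w hw
      refine (hC w (him w hw)).trans ?_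
      refine mul_le_mul (le_abs_self C) ?_ (by positivity) (abs_nonneg C)
      exact pow_le_pow_left₀ (by positivity) (hft w hw) n
    have hz' : z ∈ ball z δ := mem_ball_self hδ
    have hpow : (1 : ℝ) ≤ (D + ‖x‖) ^ n := one_le_pow₀ (by linarith)
    refine grad_le hδ (by positivity) (hg.mono fun w hw => hδs (him w hw)) fun w hw => ?_
    have h1 := (abs_le.mp (hre w hw)).2
    have h2 := (abs_le.mp (hre z hz')).1
    nlinarith [abs_nonneg C]
  -- the segment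
  have hseg : ∀ z ∈ segment ℝ z₀ (pt x Y), (z.1.im, z.2.im) ∈ Λ' ∧ ‖TC.ft z‖ ≤ ‖x‖ := by
    rintro z ⟨a, b, ha, hb', hab, rfl⟩
    have ha' : a = 1 - b := by linarith
    subst ha'
    refine ⟨⟨(b, Y), ⟨⟨hb', by linarith⟩, hY⟩, ?_⟩, ?_⟩
    · simp only [hm, hz₀, pt]
      exact Prod.ext (by simp) (by simp)
    · have : TC.ft ((1 - b) • z₀ + b • pt x Y) = b • x := by
        simp [TC.ft, hz₀, pt]
        rfl
      rw [this, norm_smul, Real.norm_of_nonneg hb']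
      exact mul_le_of_le_one_left hx0 (by linarith)
  have hKo := isOpen_Tube hK
  have hdist : ‖pt x Y - z₀‖ ≤ D + ‖x‖ := by
    have hY' : ‖Y‖ ≤ |D₀| := (hD₀ Y hY).trans (le_abs_self _)
    have h1 : ∀ s u v : ℝ, ‖((s : ℂ) + u * I) - ((0 : ℝ) + v * I)‖ ≤ |s| + (|u| + |v|) := by
      intro s u v
      have e : ((s : ℂ) + u * I) - ((0 : ℝ) + v * I) = s + (u * I - v * I) := by push_cast; ring
      rw [e]
      refine (norm_add_le _ _).trans (add_le_add (by simp) ((norm_sub_le _ _).trans ?_))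
      simp
    rw [Prod.norm_def]
    refine max_le ?_ ?_
    · refine (h1 x.1 Y.1 y₀.1).trans ?_
      have a1 : |x.1| ≤ ‖x‖ := norm_fst_le x
      have a2 : |Y.1| ≤ ‖Y‖ := norm_fst_le Y
      have a3 : |y₀.1| ≤ ‖y₀‖ := norm_fst_le y₀
      rw [hD]; linarith
    · refine (h1 x.2 Y.2 y₀.2).trans ?_
      have a1 : |x.2| ≤ ‖x‖ := norm_snd_le x
      have a2 : |Y.2| ≤ ‖Y‖ := norm_snd_le Y
      have a3 : |y₀.2| ≤ ‖y₀‖ := norm_snd_le y₀
      rw [hD]; linarith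
  have hmv := (convex_segment z₀ (pt x Y)).norm_image_sub_le_of_norm_hasFDerivWithin_le (𝕜 := ℂ)
    (f := g) (f' := fun z => fderiv ℂ g z)
    (C := 4 * ((2 * |C| + 1) * (D + ‖x‖) ^ n) / δ)
    (fun z hz => ((hg.differentiableAt (hKo.mem_nhds
      (hs' (hseg z hz).1))).hasFDerivAt).hasFDerivWithinAt)
    (fun z hz => hgr z (hseg z hz).1 (hseg z hz).2) (left_mem_segment ℝ _ _)
    (right_mem_segment ℝ _ _)
  have hDx : 1 ≤ D + ‖x‖ := by linarith
  have hpow : (1 : ℝ) ≤ (D + ‖x‖) ^ (n + 1) := one_le_pow₀ hDx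
  have h1 : ‖g (pt x Y)‖ ≤ ‖g z₀‖ + 4 * ((2 * |C| + 1) * (D + ‖x‖) ^ n) / δ * (D + ‖x‖) := by
    have h2 : ‖g (pt x Y)‖ ≤ ‖g z₀‖ + ‖g (pt x Y) - g z₀‖ := by
      simpa using norm_add_le (g z₀) (g (pt x Y) - g z₀)
    have h3 := mul_le_mul_of_nonneg_left hdist
      (by positivity : 0 ≤ 4 * ((2 * |C| + 1) * (D + ‖x‖) ^ n) / δ)
    linarith
  have h2 : ‖g z₀‖ + 4 * ((2 * |C| + 1) * (D + ‖x‖) ^ n) / δ * (D + ‖x‖)
      ≤ B * (D + ‖x‖) ^ (n + 1) := by
    have e : 4 * ((2 * |C| + 1) * (D + ‖x‖) ^ n) / δ * (D + ‖x‖)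
        = 4 * (2 * |C| + 1) / δ * (D + ‖x‖) ^ (n + 1) := by rw [pow_succ]; ring
    rw [e, hB, add_mul]
    have := le_mul_of_one_le_right (norm_nonneg (g z₀)) hpow
    linarith
  have h3 := pow_le_gauss D ‖x‖ (by linarith) hx0 (n + 1)
  have h4 : Real.exp (‖x‖ ^ 2 / 8) ≤ Real.exp (sq x / 8) :=
    Real.exp_le_exp.mpr (by linarith [norm_sq_le x])
  calc ‖g (pt x Y)‖ ≤ B * (D + ‖x‖) ^ (n + 1) := h1.trans h2
    _ ≤ B * (((n + 1).factorial * Real.exp (D + 2)) * Real.exp (‖x‖ ^ 2 / 8)) :=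
        mul_le_mul_of_nonneg_left h3 hB0
    _ ≤ B * (((n + 1).factorial * Real.exp (D + 2)) * Real.exp (sq x / 8)) :=
        mul_le_mul_of_nonneg_left (mul_le_mul_of_nonneg_left h4 (by positivity)) hB0
    _ = _ := by ring

/-- the Gaussian weight -/
noncomputable def gw (x : ℝ × ℝ) : ℝ := Real.exp (-sq x)

theorem gw_pos (x : ℝ × ℝ) : 0 < gw x := Real.exp_pos _

theorem gw_cont : Continuous gw := by
  unfold gw sq; fun_prop

theorem gw_ball {x : ℝ × ℝ} (hx : ‖x‖ ≤ 1) : Real.exp (-2) ≤ gw x := by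
  unfold gw sq
  refine Real.exp_le_exp.mpr ?_
  have h1 : |x.1| ≤ 1 := (norm_fst_le x).trans hx
  have h2 : |x.2| ≤ 1 := (norm_snd_le x).trans hx
  have h3 : x.1 ^ 2 ≤ 1 := by rw [← sq_abs]; nlinarith [abs_nonneg x.1]
  have h4 : x.2 ^ 2 ≤ 1 := by rw [← sq_abs]; nlinarith [abs_nonneg x.2]
  linarith

/-- all moments of the weight, from any centre -/
theorem gw_mom (D : ℝ) (n : ℕ) : Integrable fun x : ℝ × ℝ => (D + ‖x‖) ^ n * gw x := by
  have h0 := (int_gauss (c := 7 / 8) (by norm_num)).const_mul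
    (n.factorial * Real.exp (|D| + 2))
  refine h0.mono' ?_ (ae_of_all _ fun x => ?_)
  · exact (((continuous_const.add continuous_norm).pow n).mul gw_cont).aestronglyMeasurable
  · rw [norm_mul, norm_pow, Real.norm_of_nonneg (gw_pos x).le]
    have h1 : ‖D + ‖x‖‖ ≤ |D| + ‖x‖ := by
      refine (norm_add_le _ _).trans ?_
      rw [norm_norm, Real.norm_eq_abs]
    have h2 := pow_le_gauss |D| ‖x‖ (abs_nonneg D) (norm_nonneg x) n
    have h3 : Real.exp (‖x‖ ^ 2 / 8) ≤ Real.exp (sq x / 8) :=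
      Real.exp_le_exp.mpr (by linarith [norm_sq_le x])
    calc ‖D + ‖x‖‖ ^ n * gw x ≤ (|D| + ‖x‖) ^ n * gw x :=
          mul_le_mul_of_nonneg_right (pow_le_pow_left₀ (norm_nonneg _) h1 n) (gw_pos x).le
      _ ≤ ((n.factorial * Real.exp (|D| + 2)) * Real.exp (sq x / 8)) * gw x :=
          mul_le_mul_of_nonneg_right (h2.trans (mul_le_mul_of_nonneg_left h3 (by positivity)))
            (gw_pos x).le
      _ = (n.factorial * Real.exp (|D| + 2)) * Real.exp (-(7 / 8 * sq x)) := by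
          unfold gw
          rw [mul_assoc, ← Real.exp_add]
          congr 2
          ring

theorem K1_open (k : ℝ) : IsOpen (TC.K1 k) := by
  unfold TC.K1
  exact isOpen_lt (by fun_prop) (by fun_prop)

theorem K1_convex (k : ℝ) : Convex ℝ (TC.K1 k) := by
  intro x hx y hy a c ha hc hac
  simp only [TC.K1, mem_ofPred_eq, abs_lt, Prod.fst_add, Prod.smul_fst, smul_eq_mul, Prod.snd_add,
    Prod.smul_snd] at hx hy ⊢
  rcases ha.eq_or_lt with h | h
  · have : c = 1 := by linarith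
    subst this
    rw [← h]
    constructor <;> linarith [hy.1, hy.2]
  · have h1 := mul_pos h (sub_pos.mpr hx.1)
    have h1' := mul_pos h (sub_pos.mpr hx.2)
    have h2 := mul_nonneg hc (sub_pos.mpr hy.1).le
    have h2' := mul_nonneg hc (sub_pos.mpr hy.2).le
    constructor <;> nlinarith

theorem K1_sub_K2 {k : ℝ} (h0 : 0 < k) (h1 : k < 1) : TC.K1 k ⊆ TC.K2 k := by
  rintro ⟨a, c⟩ h
  simp only [TC.K1, TC.K2, mem_ofPred_eq, abs_lt] at h ⊢
  obtain ⟨h2, h3⟩ := h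
  have ha : 0 < a := by nlinarith
  have hk : 0 < 1 - k ^ 2 := by nlinarith
  constructor
  · nlinarith [mul_pos hk ha]
  · linarith

/-- **(T2), literal form for `TC.Tlem`** : the Gaussian means of `log ‖S‖` over the real planes have a
limit at the edge, over the whole tube on the small cone. -/
theorem T2L {k : ℝ} {S : ℂ × ℂ → ℂ} (hk0 : 0 < k) (hk1 : k < 1)
    (hS : DifferentiableOn ℂ S (TC.Tc (TC.K2 k))) (hne : ∀ z ∈ TC.Tc (TC.K1 k), S z ≠ 0)
    (up : ∀ Y : Set (ℝ × ℝ), IsCompact Y → Y ⊆ TC.K2 k → ∃ (C : ℝ) (n : ℕ), ∀ z ∈ TC.Tc Y,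
      Real.log ‖S z‖ ≤ C * (1 + ‖TC.ft z‖) ^ n)
    (lo : ∀ Y : Set (ℝ × ℝ), IsCompact Y → Y ⊆ TC.K1 k → ∃ (C : ℝ) (n : ℕ), ∀ z ∈ TC.Tc Y,
      -Real.log ‖S z‖ ≤ C * (1 + ‖TC.ft z‖) ^ n) :
    (∀ z ∈ TC.Tc (TC.K1 k), Integrable fun x : ℝ × ℝ =>
      Real.log ‖S (z.1 + x.1, z.2 + x.2)‖ * gw x) ∧
    ∃ F : ℂ × ℂ → ℂ, Differentiable ℂ F ∧ ∀ z ∈ TC.Tc (TC.K1 k), H593.JJ S gw z = (F z).re := by
  have hT : TC.Tc (TC.K1 k) = Tube (TC.K1 k) := rfl
  have hsub : Tube (TC.K1 k) ⊆ TC.Tc (TC.K2 k) := fun z hz => K1_sub_K2 hk0 hk1 hz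
  have hS1 : DifferentiableOn ℂ S (Tube (TC.K1 k)) := hS.mono hsub
  obtain ⟨g, hg, hgS⟩ := exists_hlog (isOpen_Tube (K1_open k)) (TC.convex_Tc (K1_convex k)) hS1 hne
  have hre : ∀ z ∈ Tube (TC.K1 k), Real.log ‖S z‖ = (g z).re := by
    intro z hz
    rw [← hgS z hz, norm_exp, Real.log_exp]
  have hgr : Gr (TC.K1 k) g := by
    refine growth (K1_open k) (K1_convex k) hg fun Y hY hYs => ?_
    obtain ⟨C1, n1, h1⟩ := up Y hY (hYs.trans (K1_sub_K2 hk0 hk1))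
    obtain ⟨C2, n2, h2⟩ := lo Y hY hYs
    refine ⟨|C1| + |C2|, n1 + n2, fun z hz => ?_⟩
    have hz1 : z ∈ Tube (TC.K1 k) := hYs hz
    have hb : (1 : ℝ) ≤ 1 + ‖TC.ft z‖ := by linarith [norm_nonneg (TC.ft z)]
    have p1 : (1 + ‖TC.ft z‖) ^ n1 ≤ (1 + ‖TC.ft z‖) ^ (n1 + n2) :=
      pow_le_pow_right₀ hb (by omega)
    have p2 : (1 + ‖TC.ft z‖) ^ n2 ≤ (1 + ‖TC.ft z‖) ^ (n1 + n2) :=
      pow_le_pow_right₀ hb (by omega)
    have q1 : C1 * (1 + ‖TC.ft z‖) ^ n1 ≤ |C1| * (1 + ‖TC.ft z‖) ^ (n1 + n2) :=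
      mul_le_mul (le_abs_self _) p1 (by positivity) (abs_nonneg _)
    have q2 : C2 * (1 + ‖TC.ft z‖) ^ n2 ≤ |C2| * (1 + ‖TC.ft z‖) ^ (n1 + n2) :=
      mul_le_mul (le_abs_self _) p2 (by positivity) (abs_nonneg _)
    have r1 : 0 ≤ |C1| * (1 + ‖TC.ft z‖) ^ (n1 + n2) := by positivity
    have r2 : 0 ≤ |C2| * (1 + ‖TC.ft z‖) ^ (n1 + n2) := by positivity
    have := h1 z hz
    have := h2 z hz
    rw [← hre z hz1, abs_le, add_mul]
    constructor <;> linarith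
  have hne0 : (TC.K1 k).Nonempty := ⟨(1, 0), by simp [TC.K1, hk0]⟩
  obtain ⟨F, hF, hFz⟩ := gauss_re (S := S) (K1_open k) (K1_convex k).isPreconnected hne0 hg hgr hgS
  exact ⟨fun z hz => (hFz z hz).1, F, hF, fun z hz => (hFz z hz).2⟩

/-- the limit at the edge -/
theorem T2L_lim {k : ℝ} {S : ℂ × ℂ → ℂ} (hk0 : 0 < k) (hk1 : k < 1)
    (hS : DifferentiableOn ℂ S (TC.Tc (TC.K2 k))) (hne : ∀ z ∈ TC.Tc (TC.K1 k), S z ≠ 0)
    (up : ∀ Y : Set (ℝ × ℝ), IsCompact Y → Y ⊆ TC.K2 k → ∃ (C : ℝ) (n : ℕ), ∀ z ∈ TC.Tc Y,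
      Real.log ‖S z‖ ≤ C * (1 + ‖TC.ft z‖) ^ n)
    (lo : ∀ Y : Set (ℝ × ℝ), IsCompact Y → Y ⊆ TC.K1 k → ∃ (C : ℝ) (n : ℕ), ∀ z ∈ TC.Tc Y,
      -Real.log ‖S z‖ ≤ C * (1 + ‖TC.ft z‖) ^ n) :
    ∃ L : ℝ, ∀ ε > 0, ∃ δ > 0, ∀ z ∈ TC.Tc (TC.K1 k), ‖z‖ < δ → |H593.JJ S gw z - L| ≤ ε := by
  obtain ⟨-, F, hF, hFz⟩ := T2L hk0 hk1 hS hne up lo
  refine ⟨(F 0).re, fun ε hε => ?_⟩
  obtain ⟨δ, hδ, h⟩ := Metric.continuous_iff.mp (Complex.continuous_re.comp hF.continuous) 0 ε hε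
  refine ⟨δ, hδ, fun z hz hzd => ?_⟩
  have := h z (by simpa using hzd)
  rw [hFz z hz, ← Real.dist_eq]
  exact this.le

end Vale.Agent.P097.H127
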